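import Vale.Agent.P127.Dec
import Vale.Agent.P127.Zoom

/-! # P127 Proj/A: the projection along `v` and the projected configuration is good. -/

namespace Vale.Agent.P127

open Finset
open scoped Classical

noncomputable section

theorem proj_mul {Ω β γ : Type} [DecidableEq β] [DecidableEq γ] (E : Finset Ω) (f : Ω → β)
    (g : Ω → γ) {M R : ℝ} (hM : 0 ≤ M) (hf : ((E.image f).card : ℝ) ≤ R)
    (h : ∀ ω ∈ E, ∀ F ⊆ E, (∀ ω' ∈ F, f ω' = f ω) → ((F.image g).card : ℝ) ≤ M) :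
    ((E.image g).card : ℝ) ≤ R * M := by
  have h1 := image_le_mul E f g (M := M) fun ω hω => by
    simpa only [image_cd, filter_cd] using h ω hω (E.filter fun ω' => f ω' = f ω) (filter_subset _ _)
      fun ω' h' => (mem_filter.1 h').2
  refine le_trans ?_ (mul_le_mul_of_nonneg_right hf hM)
  simpa only [image_cd, filter_cd] using h1

theorem proj_card {Ω β : Type} [DecidableEq β] (E : Finset Ω) (f : Ω → β)
    {M R : ℝ} (hM : 0 ≤ M) (hf : ((E.image f).card : ℝ) ≤ R)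
    (h : ∀ ω ∈ E, ∀ F ⊆ E, (∀ ω' ∈ F, f ω' = f ω) → (F.card : ℝ) ≤ M) :
    (E.card : ℝ) ≤ R * M := by
  have h1 := card_le_fib E f (M := M) fun ω hω => by
    simpa only [image_cd, filter_cd] using h ω hω (E.filter fun ω' => f ω' = f ω) (filter_subset _ _)
      fun ω' h' => (mem_filter.1 h').2
  refine le_trans ?_ (mul_le_mul_of_nonneg_right hf hM)
  simpa only [image_cd, filter_cd] using h1

variable {D : ℕ}

/-- the projection along `v`, scaled by `1 / (1 + K)` -/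
def prj (v : V (D + 1)) (j0 : Fin (D + 1)) (K : ℝ) (w : V (D + 1)) : V D :=
  fun j => (w (j0.succAbove j) - v (j0.succAbove j) * w j0) / (1 + K)

variable {v : V (D + 1)} {j0 : Fin (D + 1)} {K : ℝ}

theorem prj_sub (w w' : V (D + 1)) : prj v j0 K (w - w') = prj v j0 K w - prj v j0 K w' := by
  funext j
  simp only [prj, Pi.sub_apply]
  ring

theorem prj_pos (x e : V (D + 1)) (z : ℝ) :
    prj v j0 K (x + z • e) = prj v j0 K x + z • prj v j0 K e := by
  funext j
  simp only [prj, Pi.add_apply, Pi.smul_apply, smul_eq_mul]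
  ring

theorem prj_le' (hK : 0 ≤ K) (w : V (D + 1)) : ‖prj v j0 K w‖ ≤ ‖w - w j0 • v‖ := by
  refine (pi_norm_le_iff_of_nonneg (norm_nonneg _)).2 fun j => ?_
  have h1 := norm_le_pi_norm (w - w j0 • v) (j0.succAbove j)
  simp only [Pi.sub_apply, Pi.smul_apply, smul_eq_mul, Real.norm_eq_abs] at h1
  rw [prj, Real.norm_eq_abs, abs_div, abs_of_pos (by linarith : 0 < 1 + K), mul_comm]
  exact (div_le_self (abs_nonneg _) (by linarith)).trans h1

theorem prj_le (hv : ‖v‖ ≤ K) (w : V (D + 1)) : ‖prj v j0 K w‖ ≤ ‖w‖ := by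
  have hK : 0 ≤ K := (norm_nonneg v).trans hv
  refine (pi_norm_le_iff_of_nonneg (norm_nonneg _)).2 fun j => ?_
  have h1 : |w (j0.succAbove j)| ≤ ‖w‖ := norm_le_pi_norm w _
  have h2 : |w j0| ≤ ‖w‖ := norm_le_pi_norm w _
  have h3 : |v (j0.succAbove j)| ≤ K := (norm_le_pi_norm v _).trans hv
  rw [prj, Real.norm_eq_abs, abs_div, abs_of_pos (by linarith : 0 < 1 + K),
    div_le_iff₀ (by linarith)]
  refine (abs_sub _ _).trans ?_
  rw [abs_mul]
  have h4 := mul_le_mul h3 h2 (abs_nonneg _) hK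
  linarith

theorem prj_inv (hv : ‖v‖ ≤ K) (hK : 1 ≤ K) (w : V (D + 1)) {a b : ℝ}
    (ha : ‖prj v j0 K w‖ ≤ a) (hb : |w j0| ≤ b) : ‖w‖ ≤ K * (2 * a + b) := by
  have ha0 : 0 ≤ a := (norm_nonneg _).trans ha
  have hb0 : 0 ≤ b := (abs_nonneg _).trans hb
  refine (pi_norm_le_iff_of_nonneg (by positivity)).2 fun j => ?_
  rw [Real.norm_eq_abs]
  rcases Fin.eq_self_or_eq_succAbove j0 j with rfl | ⟨j, rfl⟩
  · nlinarith
  · have h1 : |prj v j0 K w j| ≤ a := (norm_le_pi_norm _ j).trans ha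
    have h3 : |v (j0.succAbove j)| ≤ K := (norm_le_pi_norm v _).trans hv
    rw [prj, abs_div, abs_of_pos (by linarith : 0 < 1 + K), div_le_iff₀ (by linarith)] at h1
    have h4 := mul_le_mul h3 hb (abs_nonneg _) (by linarith)
    have h5 := abs_add_le (w (j0.succAbove j) - v (j0.succAbove j) * w j0)
      (v (j0.succAbove j) * w j0)
    rw [sub_add_cancel, abs_mul] at h5
    nlinarith

/-- the projected configuration: lines of one slice -/
def prC (c : Cfg (D + 1)) (v : V (D + 1)) (j0 : Fin (D + 1)) (K M t : ℝ) (F : Finset (ℕ × ℝ)) :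
    Cfg D where
  L := c.L.filter fun i => |c.e i j0 - t| ≤ 1 / M
  x := fun i => prj v j0 K (c.x i)
  e := fun i => prj v j0 K (c.e i)
  Z := c.Z
  E := F
  nL := c.nL / M

variable {c : Cfg (D + 1)} {N M t : ℝ} {F : Finset (ℕ × ℝ)}

theorem prC_pos (ω : ℕ × ℝ) : (prC c v j0 K M t F).pos ω = prj v j0 K (c.pos ω) :=
  (prj_pos _ _ _).symm

theorem prC_near (hv : ‖v‖ ≤ K) (hK : 1 ≤ K) {i i' : ℕ} (hi : i ∈ (prC c v j0 K M t F).L)
    (hi' : i' ∈ (prC c v j0 K M t F).L) {a : ℝ}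
    (h : ‖prj v j0 K (c.e i) - prj v j0 K (c.e i')‖ ≤ a) :
    ‖c.e i - c.e i'‖ ≤ K * (2 * a + 2 / M) := by
  refine prj_inv (j0 := j0) hv hK _ (by rwa [prj_sub]) ?_
  have h1 := abs_le.1 (mem_filter.1 hi).2
  have h2 := abs_le.1 (mem_filter.1 hi').2
  have h3 : 2 / M = 1 / M + 1 / M := by ring
  rw [Pi.sub_apply, abs_le, h3]
  constructor <;> linarith [h1.1, h1.2, h2.1, h2.2]

theorem prC_dirs (h : Good c N M K) (hv : ‖v‖ ≤ K) (hK : 1 ≤ K) (hM : 1 ≤ M) (hN : M ≤ N)
    (p : V D) (r : ℝ) (hr : 1 / M ≤ r) :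
    (((prC c v j0 K M t F).L.filter fun i => ‖prj v j0 K (c.e i) - p‖ ≤ r).card : ℝ) ≤
      4 ^ (2 * D + 1) * K ^ (D + 2) * r ^ D * (c.nL / M) := by
  have hM0 : 0 < M := by linarith
  have hr0 : 0 < r := lt_of_lt_of_le (by positivity) hr
  have hn := h.nL_pos
  have h1 : 1 ≤ r * M := (div_le_iff₀ hM0).1 hr
  have key := proj_card ((prC c v j0 K M t F).L.filter fun i => ‖prj v j0 K (c.e i) - p‖ ≤ r)
    (fun i => cell (1 / M) (prj v j0 K (c.e i))) (M := K * (4 * K / M) ^ (D + 1) * c.nL)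
    (R := (4 * (r * M)) ^ D) (by positivity) ?_ ?_
  · refine key.trans (le_of_eq ?_)
    rw [div_pow, mul_pow, mul_pow, mul_pow]
    field_simp
    ring
  · refine (cover _ (fun i => prj v j0 K (c.e i)) p (by positivity) hr0.le
      fun i hi => (mem_filter.1 hi).2).trans ?_
    rw [Fintype.card_fin]
    have h2 : 2 * r / (1 / M) = 2 * (r * M) := by field_simp
    rw [h2]
    gcongr
    linarith
  · intro i hi A hA hc
    have h2 : 1 / N ≤ 4 * K / M := by
      rw [div_le_div_iff₀ (by linarith) hM0]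
      nlinarith
    refine le_trans (Nat.cast_le.2 (card_le_card fun i' hi' => ?_)) (h.dirs (c.e i) _ h2)
    have h3 := (mem_filter.1 (hA hi')).1
    refine mem_filter.2 ⟨(mem_filter.1 h3).1, (prC_near hv hK h3 (mem_filter.1 hi).1
      (cell_close (by positivity) (hc i' hi'))).trans (le_of_eq ?_)⟩
    ring

theorem prC_st (h : Good c N M K) (hv : ‖v‖ ≤ K) (hK : 1 ≤ K) (hM : 1 ≤ M) (hN : M ≤ N)
    (p : V D) (r : ℝ) (hr : 1 / M ≤ r) (hr1 : r ≤ 1) :
    ((((prC c v j0 K M t F).L.filter fun i => ‖prj v j0 K (c.e i) - p‖ ≤ r).image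
      fun i => cell r (prj v j0 K (c.x i))).card : ℝ) ≤ (14 * K) ^ (D + 1) * (K * 4 ^ D) := by
  have hM0 : 0 < M := by linarith
  have hr0 : 0 < r := lt_of_lt_of_le (by positivity) hr
  have hN' : 1 / N ≤ r := (one_div_le_one_div_of_le hM0 hN).trans hr
  set A := (prC c v j0 K M t F).L.filter fun i => ‖prj v j0 K (c.e i) - p‖ ≤ r with hA
  rcases A.eq_empty_or_nonempty with e | ⟨i0, hi0⟩
  · rw [e, image_empty, card_empty, Nat.cast_zero]
    positivity
  refine proj_mul A (fun i => cell r (c.e i)) _ (by positivity) ?_ fun i hi B hB hc => ?_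
  · refine (cover A c.e (c.e i0) (ρ := 6 * K * r) hr0 (by positivity) fun i hi => ?_).trans ?_
    · have h1 := (mem_filter.1 hi).2
      have h2 := (mem_filter.1 hi0).2
      have h3 : ‖prj v j0 K (c.e i) - prj v j0 K (c.e i0)‖ ≤ 2 * r := by
        have := norm_sub_le_norm_sub_add_norm_sub (prj v j0 K (c.e i)) p (prj v j0 K (c.e i0))
        rw [norm_sub_rev p] at this
        linarith
      refine (prC_near hv hK (mem_filter.1 hi).1 (mem_filter.1 hi0).1 h3).trans ?_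
      have h4 : 2 / M = 2 * (1 / M) := by ring
      rw [h4]
      nlinarith
    · rw [Fintype.card_fin]
      have h2 : 2 * (6 * K * r) / r = 12 * K := by field_simp; norm_num
      rw [h2]
      gcongr
      linarith
  · refine proj_mul B (fun i => cell r (c.x i)) _ (by positivity) ?_ fun i1 _ B1 _ hc1 => ?_
    · refine le_trans (Nat.cast_le.2 (card_le_card (image_subset_image fun i' hi' => ?_)))
        (h.st (c.e i) r hN' hr1)
      exact mem_filter.2 ⟨(mem_filter.1 (mem_filter.1 (hB hi')).1).1, cell_close hr0 (hc i' hi')⟩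
    · refine (cover B1 (fun i => prj v j0 K (c.x i)) (prj v j0 K (c.x i1)) hr0 hr0.le
        fun i' hi' => ?_).trans (le_of_eq ?_)
      · rw [← prj_sub]
        exact (prj_le hv _).trans (cell_close hr0 (hc1 i' hi'))
      · rw [Fintype.card_fin, mul_div_cancel_right₀ _ hr0.ne']
        norm_num

theorem prC_good (h : Good c N M K) (hv : ‖v‖ ≤ K) (hK : 1 ≤ K) (hM : 1 ≤ M) (hN : M ≤ N)
    (j0 : Fin (D + 1)) : ∃ (t : ℝ) (F : Finset (ℕ × ℝ)), F ⊆ c.E ∧
      Good (prC c v j0 K M t F) M M (56 ^ (D + 1) * K ^ (D + 2)) := by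
  have hM0 : 0 < M := by linarith
  have hK0 : 0 < K := by linarith
  have hn := h.nL_pos
  obtain ⟨F, hF, h1, h2⟩ := big_comb c.E fun ω => cz (1 / M) (c.e ω.1 j0)
  have h3 : ((c.E.image fun ω => cz (1 / M) (c.e ω.1 j0)).card : ℝ) ≤ 4 * M := by
    refine (cover_z c.E (fun ω => c.e ω.1 j0) 0 (ρ := 1) (by positivity) zero_le_one
      fun ω hω => ?_).trans ?_
    · rw [sub_zero]
      exact (norm_le_pi_norm (c.e ω.1) j0).trans (h.be _ (mem_product.1 (h.sub hω)).1)
    · have : 2 * 1 / (1 / M) = 2 * M := by field_simp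
      linarith
  have h4 : (c.E.card : ℝ) ≤ 4 * M * F.card := by
    refine le_trans ?_ (mul_le_mul_of_nonneg_right h3 (Nat.cast_nonneg _))
    simpa only [image_cd, filter_cd] using h1
  have h5 : c.nL / (4 * K) ≤ F.card := by
    have h6 := h.mass.trans h4
    rw [div_le_iff₀ hK0] at h6
    rw [div_le_iff₀ (by positivity)]
    nlinarith
  obtain ⟨ω0, h0⟩ : F.Nonempty :=
    card_pos.1 (Nat.cast_pos.1 (lt_of_lt_of_le (by positivity) h5))
  have k1 : K ≤ K ^ (D + 2) := le_self_pow₀ hK (by omega)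
  have k2 : (4 : ℝ) ≤ 56 ^ (D + 1) := le_trans (by norm_num) (le_self_pow₀ (by norm_num) (by omega))
  have k3 : 4 * K ≤ 56 ^ (D + 1) * K ^ (D + 2) := by gcongr
  refine ⟨c.e ω0.1 j0, F, hF, ⟨fun ω hω => ?_, by show 0 < c.nL / M; positivity,
    fun i hi => (prj_le hv _).trans (h.bx i (mem_filter.1 hi).1),
    fun i hi => (prj_le hv _).trans (h.be i (mem_filter.1 hi).1), h.bz,
    fun a r hr => (h.hts a r hr).trans ?_, fun p r hr => (prC_dirs h hv hK hM hN p r hr).trans ?_,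
    ?_⟩, fun p r hr hr1 => (prC_st h hv hK hM hN p r hr hr1).trans ?_⟩
  · obtain ⟨h6, h7⟩ := mem_product.1 (h.sub (hF hω))
    exact mem_product.2 ⟨mem_filter.2 ⟨h6, cz_close (by positivity) (h2 ω hω ω0 h0)⟩, h7⟩
  · have : 0 < r := lt_of_lt_of_le (by positivity) hr
    gcongr
    linarith
  · have : 0 < r := lt_of_lt_of_le (by positivity) hr
    show _ ≤ _ * _ * _ * (c.nL / M)
    have h6 : (4 : ℝ) ^ (2 * D + 1) ≤ 56 ^ (D + 1) := by
      calc (4 : ℝ) ^ (2 * D + 1) ≤ 4 ^ (2 * (D + 1)) := pow_le_pow_right₀ (by norm_num) (by omega)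
        _ = 16 ^ (D + 1) := by rw [pow_mul]; norm_num
        _ ≤ _ := by gcongr; norm_num
    gcongr
  · show c.nL / M * M / _ ≤ (F.card : ℝ)
    rw [div_mul_cancel₀ _ hM0.ne']
    exact le_trans (by gcongr) h5
  · have h6 : (56 : ℝ) ^ (D + 1) = 14 ^ (D + 1) * (4 ^ D * 4) := by
      rw [← pow_succ, ← mul_pow]
      norm_num
    rw [h6, mul_pow]
    have h7 : (0 : ℝ) < 14 ^ (D + 1) * 4 ^ D * K ^ (D + 2) := by positivity
    calc (14 : ℝ) ^ (D + 1) * K ^ (D + 1) * (K * 4 ^ D) = 14 ^ (D + 1) * 4 ^ D * K ^ (D + 2) := by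
          ring
      _ ≤ _ := by nlinarith

end

end Vale.Agent.P127
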